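import Vale.Agent.P181.T3.Spec

/-!
P181, three-row extension, all `a` (also odd): pieces of two sizes.
-/

set_option autoImplicit false

namespace Vale.Agent.P181.T3

open Finset

/-- `r` distributes the labels `Fin Q` to `q` forms, `c τ` labels of type `τ` to each form. -/
def Typed {q Q : ℕ} (ty : Fin Q → Bool) (c : Bool → ℕ) (r : Fin Q → Fin q) : Prop :=
  ∀ φ z, (univ.filter (fun κ => r κ = φ ∧ ty κ = z)).card = c z

/-- Every even set `A` of labels has two distributions `r, r'` such that flips of forms on both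
sides which agree on `A` flip an even number of elements of `A`. -/
def Comb {q Q : ℕ} (ty : Fin Q → Bool) (c : Bool → ℕ) : Prop :=
  ∀ A : Finset (Fin Q), Even A.card → ∃ r r' : Fin Q → Fin q, Typed ty c r ∧ Typed ty c r' ∧
    ∀ f f' : Fin q → Bool, (∀ κ ∈ A, f (r κ) = f' (r' κ)) →
      Even (A.filter (fun κ => f (r κ) = true)).card

/-- Row E (COMBINATORICS for `2 + 3`): first `2 q` labels of type `true`, the other `3 q` labels of
type `false`. -/
def CombStmt : Prop :=
  ∀ q : ℕ, Comb (q := q) (Q := 5 * q) (fun κ => decide ((κ : ℕ) < 2 * q))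
    (fun z => if z then 2 else 3)

/-- Row C' (ALTERNATION, two types). -/
def Alt2Stmt : Prop :=
  ∀ (a q Q : ℕ) (ty : Fin Q → Bool) (c : Bool → ℕ), Comb (q := q) ty c →
    ∀ (V : (Fin a × Fin Q → Fin a) → ℂ) (mate : Fin a → Fin a),
    (∀ i, mate (mate i) = i) →
    (∀ (τ : Equiv.Perm (Fin a)) y, V (fun p => τ (y p)) = V y) →
    (∀ ρ : Fin a × Fin Q → Fin a × Fin q,
      (∀ r z, (univ.filter (fun p => ρ p = r ∧ ty p.2 = z)).card = c z) →
      ∑ σ : Equiv.Perm (Fin a × Fin q), V (fun p => (σ (ρ p)).1) = 0) →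
    (∀ y, (∀ m z, (univ.filter (fun p => y p = m ∧ ty p.2 = z)).card = q * c z) → V y ≠ 0 →
      ∃ τ : Equiv.Perm (Fin a), ∀ p, τ (y p) = p.1 ∨ τ (y p) = mate p.1) →
    V Prod.fst = 0

end Vale.Agent.P181.T3
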