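import Mathlib.Tactic
import Mathlib.Data.Fintype.BigOperators
import Mathlib.Analysis.Complex.Basic

/-!
P181, three-row extension of the power map theorem (`b = q a`, `a` even, `λ_1 ≤ 3 b - M` or
`λ_{a-1} ≥ M`). Literal statements of the rows.

Pieces: every row `i` of a filling is cut into `Q = 2 q` pieces `(i, κ)` of `a / 2` boxes.
`y : Fin a × Fin Q → Fin a` = new row of each piece.
-/

set_option autoImplicit false

namespace Vale.Agent.P181.T3

open Finset

/-- Number of columns that contain both `m` and `m'`, for a filling `r` (row of each box). -/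
def cc {a N : ℕ} {B : Type*} [Fintype B] [DecidableEq B] (t : B → Fin N) (r : B → Fin a)
    (m m' : Fin a) : ℕ :=
  (univ.filter (fun c => (∃ x, t x = c ∧ r x = m) ∧ ∃ x, t x = c ∧ r x = m')).card

/-- Number of ordered pairs of different rows with fewer than `θ` common columns. -/
def low {a N : ℕ} {B : Type*} [Fintype B] [DecidableEq B] (θ : ℕ) (t : B → Fin N)
    (r : B → Fin a) : ℕ :=
  ((univ : Finset (Fin a × Fin a)).filter (fun p => p.1 ≠ p.2 ∧ cc t r p.1 p.2 < θ)).card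

/-- Row A (STRUCTURE). If a proper balanced regrouping `y` of the pieces has at least as many low
pairs as the original filling, then it only mixes isolated low pairs: up to a permutation of the
rows, every piece stays in its row or goes to the partner of its row. -/
def StructStmt : Prop :=
  ∀ (a N Q θ Λ : ℕ) (B : Type) [Fintype B] [DecidableEq B] (t : B → Fin N)
    (pc : B → Fin a × Fin Q), 1 ≤ Q → 1 ≤ θ →
    -- (alpha), (beta), (gamma)
    (∀ i j, i ≠ j → θ ≤ cc t (fun x => (pc x).1) i j → ∀ κ κ',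
      ∃ x x', t x = t x' ∧ pc x = (i, κ) ∧ pc x' = (j, κ')) →
    (∀ i j, i ≠ j → Λ ≤ cc t (fun x => (pc x).1) i j → ∀ κ κ',
      θ ≤ (univ.filter (fun c => (∃ x, t x = c ∧ pc x = (i, κ)) ∧
        ∃ x, t x = c ∧ pc x = (j, κ'))).card) →
    (∀ i j k, i ≠ j → i ≠ k → j ≠ k → 2 * Λ + θ ≤ cc t (fun x => (pc x).1) i j +
      cc t (fun x => (pc x).1) i k + cc t (fun x => (pc x).1) j k) →
    ∀ y : Fin a × Fin Q → Fin a, (∀ m, (univ.filter (fun p => y p = m)).card = Q) →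
    (∀ x x', t x = t x' → x ≠ x' → y (pc x) ≠ y (pc x')) →
    low θ t (fun x => (pc x).1) ≤ low θ t (fun x => y (pc x)) →
    ∃ τ : Equiv.Perm (Fin a), ∀ i κ, τ (y (i, κ)) = i ∨
      (τ (y (i, κ)) ≠ i ∧ cc t (fun x => (pc x).1) i (τ (y (i, κ))) < θ ∧
        ∀ k, k ≠ i → k ≠ τ (y (i, κ)) → θ ≤ cc t (fun x => (pc x).1) i k ∧
          θ ≤ cc t (fun x => (pc x).1) (τ (y (i, κ))) k)

/-- Row B (LABELLING). -/
def Kernel3Stmt : Prop :=
  ∀ (a N Q w θ Λ : ℕ) (C : Fin a → Finset (Fin N)), 1 ≤ Q → (∀ i, (C i).card = Q * w) →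
    (a : ℝ) ^ 2 * (Q : ℝ) ^ 2 * (2 * (1 - 1 / (2 * (Q : ℝ) ^ 2)) ^ θ) +
      (a : ℝ) ^ 2 * (Q : ℝ) ^ 2 * (2 ^ θ * (1 - 1 / (2 * (Q : ℝ) ^ 2)) ^ Λ) < 1 →
    ∃ lab : Fin a → Fin N → Fin Q,
      (∀ i k, ((C i).filter (fun t => lab i t = k)).card = w) ∧
      (∀ i j, i ≠ j → θ ≤ (C i ∩ C j).card → ∀ k k', ∃ t ∈ C i ∩ C j,
        lab i t = k ∧ lab j t = k') ∧
      ∀ i j, i ≠ j → Λ ≤ (C i ∩ C j).card → ∀ k k',
        θ ≤ ((C i ∩ C j).filter (fun t => lab i t = k ∧ lab j t = k')).card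

/-- Row C (ALTERNATION): the tensor product of the systems for pairs and two pieces. -/
def AltStmt : Prop :=
  ∀ (a q : ℕ) (V : (Fin a × Fin (2 * q) → Fin a) → ℂ) (mate : Fin a → Fin a),
    (∀ i, mate (mate i) = i) →
    (∀ (τ : Equiv.Perm (Fin a)) y, V (fun p => τ (y p)) = V y) →
    (∀ ρ : Fin a × Fin (2 * q) → Fin a × Fin q,
      (∀ r, (univ.filter (fun p => ρ p = r)).card = 2) →
      ∑ σ : Equiv.Perm (Fin a × Fin q), V (fun p => (σ (ρ p)).1) = 0) →
    (∀ y, (∀ m, (univ.filter (fun p => y p = m)).card = 2 * q) → V y ≠ 0 →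
      ∃ τ : Equiv.Perm (Fin a), ∀ p, τ (y p) = p.1 ∨ τ (y p) = mate p.1) →
    V Prod.fst = 0

end Vale.Agent.P181.T3
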