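import Vale.Agent.P181.T3.Spec
import Vale.Agent.P181.H179.P7
import Vale.Agent.P181.H54.BulkA

/-!
P181, three-row extension of the power map theorem: fillings and partners.
-/

set_option autoImplicit false

open scoped TensorProduct

namespace Vale.Agent.P181.T3

open Vale.Agent.P181 Vale.Agent.P181.H280 Vale.Agent.P181.H179 Finset MvPolynomial

lemma cc_comm {a N : ℕ} {B : Type*} [Fintype B] [DecidableEq B] (t : B → Fin N)
    (r : B → Fin a) (m m' : Fin a) : cc t r m m' = cc t r m' m := by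
  rw [cc, cc]
  congr 1
  apply Finset.filter_congr
  intro c _
  exact and_comm

/-- Isolated low pairs. -/
def iso {a N : ℕ} {B : Type*} [Fintype B] [DecidableEq B] (θ : ℕ) (t : B → Fin N)
    (r : B → Fin a) (i j : Fin a) : Prop :=
  j ≠ i ∧ cc t r i j < θ ∧ ∀ k, k ≠ i → k ≠ j → θ ≤ cc t r i k ∧ θ ≤ cc t r j k

section

variable {a N : ℕ} {B : Type*} [Fintype B] [DecidableEq B] {θ : ℕ} {t : B → Fin N}
  {r : B → Fin a}

lemma iso_symm {i j : Fin a} (h : iso θ t r i j) : iso θ t r j i :=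
  ⟨h.1.symm, by rw [cc_comm]; exact h.2.1, fun k hj hi => (h.2.2 k hi hj).symm⟩

lemma iso_unique {i j j' : Fin a} (h : iso θ t r i j) (h' : iso θ t r i j') : j' = j := by
  by_contra hne
  have h1 := (h.2.2 j' h'.1 hne).1
  have h2 := h'.2.1
  omega

open Classical in
/-- The partner of a row. -/
noncomputable def mate (θ : ℕ) (t : B → Fin N) (r : B → Fin a) (i : Fin a) : Fin a :=
  if h : ∃ j, iso θ t r i j then h.choose else i

lemma mate_eq {i j : Fin a} (h : iso θ t r i j) : mate θ t r i = j := by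
  have h1 : ∃ j, iso θ t r i j := ⟨j, h⟩
  rw [mate, dif_pos h1]
  exact iso_unique h h1.choose_spec

lemma mate_mate (i : Fin a) : mate θ t r (mate θ t r i) = i := by
  by_cases h : ∃ j, iso θ t r i j
  · obtain ⟨j, hj⟩ := h
    rw [mate_eq hj]
    exact mate_eq (iso_symm hj)
  · have h1 : mate θ t r i = i := dif_neg h
    rw [h1, h1]

end

section

variable {a N : ℕ} {l : Fin N → ℕ}

/-- The columns of a row. -/
def CC (e : Box l → Fin a) (i : Fin a) : Finset (Fin N) :=
  univ.filter (fun c => ∃ x : Box l, x.1 = c ∧ e x = i)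

lemma mem_CC {e : Box l → Fin a} {i : Fin a} {c : Fin N} :
    c ∈ CC e i ↔ ∃ x : Box l, x.1 = c ∧ e x = i := by
  rw [CC, Finset.mem_filter]
  exact ⟨fun h => h.2, fun h => ⟨Finset.mem_univ _, h⟩⟩

lemma cc_eq (e : Box l → Fin a) (i j : Fin a) :
    cc (fun p : Box l => p.1) e i j = (CC e i ∩ CC e j).card := by
  rw [cc]
  congr 1
  ext c
  rw [Finset.mem_filter, Finset.mem_inter, mem_CC, mem_CC]
  exact ⟨fun h => h.2, fun h => ⟨Finset.mem_univ _, h⟩⟩

variable {e : Box l → Fin a} (hcol : ∀ t u v, u ≠ v → e ⟨t, u⟩ ≠ e ⟨t, v⟩)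

include hcol

lemma rt_inj (p p' : Box l) (h1 : e p = e p') (h2 : p.1 = p'.1) : p = p' := by
  obtain ⟨t, x⟩ := p
  obtain ⟨t', y⟩ := p'
  simp only at h2
  subst h2
  by_contra h3
  exact hcol t x y (fun h4 => h3 (by rw [h4])) h1

lemma CC_bij (i : Fin a) (Q : Fin N → Prop) [DecidablePred Q] :
    (univ.filter (fun p : Box l => e p = i ∧ Q p.1)).card = ((CC e i).filter Q).card := by
  apply Finset.card_bij (fun p _ => p.1)
  · intro p hp
    rw [Finset.mem_filter] at hp
    rw [Finset.mem_filter, mem_CC]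
    exact ⟨⟨p, rfl, hp.2.1⟩, hp.2.2⟩
  · intro p hp p' hp' h
    rw [Finset.mem_filter] at hp hp'
    exact rt_inj hcol p p' (hp.2.1.trans hp'.2.1.symm) h
  · intro t ht
    rw [Finset.mem_filter, mem_CC] at ht
    obtain ⟨⟨x, rfl, hs⟩, hQ⟩ := ht
    exact ⟨x, Finset.mem_filter.2 ⟨Finset.mem_univ _, hs, hQ⟩, rfl⟩

lemma CC_card {b : ℕ} (hrow : ∀ i, (univ.filter (fun p => e p = i)).card = b) (i : Fin a) :
    (CC e i).card = b := by
  have h1 := CC_bij hcol i (fun _ => True)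
  simp only [and_true, Finset.filter_true] at h1
  rw [← h1, hrow i]

omit hcol in
lemma three_of_sum {b X : ℕ} (hC : ∀ i, (CC e i).card = b) (hN : N + X ≤ 3 * b) (i j k : Fin a) :
    X ≤ (CC e i ∩ CC e j).card + (CC e i ∩ CC e k).card + (CC e j ∩ CC e k).card := by
  have h2 := Finset.card_union_add_card_inter (CC e i) (CC e j)
  have h3 := Finset.card_union_add_card_inter (CC e i ∪ CC e j) (CC e k)
  have h4 : ((CC e i ∪ CC e j) ∩ CC e k).card ≤
      (CC e i ∩ CC e k).card + (CC e j ∩ CC e k).card := by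
    rw [Finset.union_inter_distrib_right]
    exact Finset.card_union_le _ _
  have h5 : ((CC e i ∪ CC e j) ∪ CC e k).card ≤ N := by
    have h6 := Finset.card_le_univ ((CC e i ∪ CC e j) ∪ CC e k)
    rwa [Fintype.card_fin] at h6
  rw [hC, hC] at h2
  rw [hC] at h3
  omega

lemma miss_one {t : Fin N} (ht : a - 2 < l t) (u v : Fin a) (huv : u ≠ v) :
    t ∈ CC e u ∨ t ∈ CC e v := by
  classical
  have hinj : Function.Injective (fun s : Fin (l t) => e ⟨t, s⟩) := by
    intro u v huv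
    by_contra h4
    exact hcol t u v h4 huv
  by_contra hno
  push Not at hno
  obtain ⟨h5, h6⟩ := hno
  have h7 : (univ.image (fun s : Fin (l t) => e ⟨t, s⟩)) ⊆ (univ.erase u).erase v := by
    intro w hw
    obtain ⟨s, _, hs⟩ := Finset.mem_image.1 hw
    rw [Finset.mem_erase, Finset.mem_erase]
    refine ⟨?_, ?_, Finset.mem_univ _⟩
    · rintro rfl
      exact h6 (mem_CC.2 ⟨⟨t, s⟩, rfl, hs⟩)
    · rintro rfl
      exact h5 (mem_CC.2 ⟨⟨t, s⟩, rfl, hs⟩)
  have h8 := Finset.card_le_card h7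
  rw [Finset.card_image_of_injective _ hinj, Finset.card_univ, Fintype.card_fin,
    Finset.card_erase_of_mem (Finset.mem_erase.2 ⟨huv.symm, Finset.mem_univ _⟩),
    Finset.card_erase_of_mem (Finset.mem_univ _), Finset.card_univ, Fintype.card_fin] at h8
  omega

lemma three_of_tall {X : ℕ} (hX : X ≤ (univ.filter (fun t => a - 2 < l t)).card)
    (i j k : Fin a) (hij : i ≠ j) (hik : i ≠ k) (hjk : j ≠ k) :
    X ≤ (CC e i ∩ CC e j).card + (CC e i ∩ CC e k).card + (CC e j ∩ CC e k).card := by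
  have h4 : (univ.filter (fun t => a - 2 < l t)) ⊆
      ((CC e i ∩ CC e j) ∪ (CC e i ∩ CC e k)) ∪ (CC e j ∩ CC e k) := by
    intro t ht
    rw [Finset.mem_filter] at ht
    rw [Finset.mem_union, Finset.mem_union, Finset.mem_inter, Finset.mem_inter, Finset.mem_inter]
    have h5 := miss_one hcol ht.2 i j hij
    have h6 := miss_one hcol ht.2 i k hik
    have h7 := miss_one hcol ht.2 j k hjk
    rcases h5 with h5 | h5
    · rcases h7 with h7 | h7
      · exact Or.inl (Or.inl ⟨h5, h7⟩)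
      · exact Or.inl (Or.inr ⟨h5, h7⟩)
    · rcases h6 with h6 | h6
      · exact Or.inl (Or.inl ⟨h6, h5⟩)
      · exact Or.inr ⟨h5, h6⟩
  have h5 := Finset.card_le_card h4
  have h6 := Finset.card_union_le ((CC e i ∩ CC e j) ∪ (CC e i ∩ CC e k)) (CC e j ∩ CC e k)
  have h7 := Finset.card_union_le (CC e i ∩ CC e j) (CC e i ∩ CC e k)
  omega

end

variable {n : ℕ}

/-- A nonzero highest weight form does not vanish on some filling with the minimal number of low
pairs, in which any three rows share at least `X` columns pairwise. -/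
theorem exists_min {a b X θ : ℕ} (ha : 3 ≤ a) (lam : Fin n → ℕ)
    (hlam : (∃ M, (∀ m, lam m ≤ M) ∧ M + X ≤ 3 * b) ∨
      (a ≤ n + 1 ∧ ∀ m : Fin n, (m : ℕ) + 1 < a → X ≤ lam m))
    (l : (Fin a → Fin b → (Fin n → ℂ)) →₀ ℂ) (hx : elOf l ∈ hwSpace lam (plethAct a b n))
    (hne : fullForm l ≠ 0) :
    ∃ (N : ℕ) (l' : Fin N → ℕ) (e : Box l' → Fin a), VV (fullForm l) l' e ≠ 0 ∧
      (∀ e' : Box l' → Fin a, VV (fullForm l) l' e' ≠ 0 →
        low θ (fun p : Box l' => p.1) e ≤ low θ (fun p : Box l' => p.1) e') ∧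
      ∀ i j k, i ≠ j → i ≠ k → j ≠ k →
        X ≤ (CC e i ∩ CC e j).card + (CC e i ∩ CC e k).card + (CC e j ∩ CC e k).card := by
  classical
  obtain ⟨M0, hM0, hM1⟩ : ∃ M0, (∀ i, lam i ≤ M0) ∧ ((M0 + X ≤ 3 * b) ∨
        (a ≤ n + 1 ∧ ∀ m : Fin n, (m : ℕ) + 1 < a → X ≤ lam m)) := by
    rcases hlam with ⟨M, h1, h2⟩ | h
    · exact ⟨M, h1, Or.inl h2⟩
    · exact ⟨∑ i, lam i, fun i => Finset.single_le_sum (fun j _ => Nat.zero_le _)
        (Finset.mem_univ i), Or.inr h⟩
  obtain ⟨N', hN', l', e0, hV0, hcc⟩ := H54B.exists_VV_col M0 (wt lam) (fullForm l)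
    (fullForm_hw lam l hx) hne (fun m hm => by rw [wt, dif_neg (by omega)]) (fun m => by
      rw [wt]
      split_ifs
      · exact hM0 _
      · exact Nat.zero_le _)
  obtain ⟨e, he, hmin⟩ := Finset.exists_min_image
    (univ.filter (fun e : Box l' → Fin a => VV (fullForm l) l' e ≠ 0))
    (fun e => low θ (fun p : Box l' => p.1) e)
    ⟨e0, Finset.mem_filter.2 ⟨Finset.mem_univ _, hV0⟩⟩
  have hV : VV (fullForm l) l' e ≠ 0 := (Finset.mem_filter.1 he).2
  have hcol : ∀ t u v, u ≠ v → e ⟨t, u⟩ ≠ e ⟨t, v⟩ := fun t u v huv h =>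
    hV (VV_anti _ e t huv h)
  have hrow := VV_card (fullForm_deg l) hV
  refine ⟨N', l', e, hV, fun e' he' => hmin e' (Finset.mem_filter.2 ⟨Finset.mem_univ _, he'⟩), ?_⟩
  intro i j k hij hik hjk
  rcases hM1 with h1 | ⟨han, h1⟩
  · exact three_of_sum (CC_card hcol hrow) (by omega) i j k
  · apply three_of_tall hcol _ i j k hij hik hjk
    have h2 := hcc (a - 2)
    rw [wt, dif_pos (by omega : a - 2 < n)] at h2
    rw [h2]
    exact h1 _ (by simp only; omega)

end Vale.Agent.P181.T3
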