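import Vale.Agent.P181.T3.Spec
import Vale.Agent.P181.Q.Kernel
import Vale.Agent.P181.Q.Kernel2

/-!
P181, three-row extension: labelling (random block shifts, two families of events).
-/

set_option autoImplicit false

namespace Vale.Agent.P181.T3

open Finset Vale.Agent.P181.H179 Vale.Agent.P181.Q

/-- Random block shifts with an individual requirement for every pair of rows. -/
theorem kernel_pairs {a N Q w : ℕ} (C : Fin a → Finset (Fin N)) (hQ : 1 ≤ Q) (hw : 1 ≤ w)
    (hC : ∀ i, (C i).card = Q * w) {ι : Type} (I : Finset ι) (g : ι → Fin a → Fin a → Prop)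
    [∀ z i j, Decidable (g z i j)] (μ : ι → ℕ) (s : ι → ℕ)
    (hs : ∀ z ∈ I, ∀ i j, i ≠ j → g z i j → s z ≤ (C i ∩ C j).card)
    (hb : ∑ z ∈ I, (a : ℝ) ^ 2 * (Q : ℝ) ^ 2 * (2 ^ μ z *
      (1 - 1 / (2 * (Q : ℝ) ^ 2)) ^ s z) < 1) :
    ∃ lab : Fin a → Fin N → Fin Q,
      (∀ i k, ((C i).filter (fun t => lab i t = k)).card = w) ∧
      ∀ z ∈ I, ∀ i j, i ≠ j → g z i j → ∀ k k',
        μ z < ((C i ∩ C j).filter (fun t => lab i t = k ∧ lab j t = k')).card := by
  classical
  haveI : NeZero Q := ⟨by omega⟩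
  have hQR : (1 : ℝ) ≤ Q := by exact_mod_cast hQ
  let z0 : Fin w × Fin Q := (⟨0, by omega⟩, ⟨0, by omega⟩)
  have hE : ∀ i, Nonempty ({t // t ∈ C i} ≃ Fin w × Fin Q) := by
    intro i
    refine ⟨Fintype.equivOfCardEq ?_⟩
    rw [Fintype.card_coe, hC, Fintype.card_prod, Fintype.card_fin, Fintype.card_fin, mul_comm]
  let E : ∀ i, {t // t ∈ C i} ≃ Fin w × Fin Q := fun i => (hE i).some
  let φ : Fin a → Fin N → Fin w × Fin Q := fun i t => if h : t ∈ C i then E i ⟨t, h⟩ else z0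
  have hφ : ∀ i t (h : t ∈ C i), φ i t = E i ⟨t, h⟩ := fun i t h => dif_pos h
  have hinj : ∀ i, Set.InjOn (φ i) (C i) := by
    intro i s hs t ht hst
    have hs' : s ∈ C i := hs
    have ht' : t ∈ C i := ht
    rw [hφ i s hs', hφ i t ht'] at hst
    exact congrArg Subtype.val ((E i).injective hst)
  -- sizes
  have hsize : ∀ (γ : Fin w → Fin Q) i k,
      ((C i).filter (fun t => lb (φ i) γ t = k)).card = w := by
    intro γ i k
    have h1 : ((C i).filter (fun t => lb (φ i) γ t = k)).card =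
        (univ.filter (fun r : Fin w × Fin Q => r.2 + γ r.1 = k)).card := by
      apply Finset.card_bij (fun t _ => φ i t)
      · intro t ht
        rw [Finset.mem_filter] at ht ⊢
        exact ⟨Finset.mem_univ _, ht.2⟩
      · intro s hs t ht hst
        rw [Finset.mem_filter] at hs ht
        exact hinj i hs.1 ht.1 hst
      · intro r hr
        rw [Finset.mem_filter] at hr
        refine ⟨((E i).symm r : Fin N), ?_, ?_⟩
        · rw [Finset.mem_filter]
          refine ⟨((E i).symm r).2, ?_⟩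
          rw [lb, hφ i _ ((E i).symm r).2]
          simp only [Subtype.coe_eta, Equiv.apply_symm_apply]
          exact hr.2
        · rw [hφ i _ ((E i).symm r).2]
          simp only [Subtype.coe_eta, Equiv.apply_symm_apply]
    rw [h1, Finset.card_filter, Fintype.sum_prod_type]
    have h2 : ∀ β : Fin w, ∑ p : Fin Q, (if p + γ β = k then 1 else 0) = 1 := by
      intro β
      rw [Finset.sum_eq_single (k - γ β)]
      · rw [sub_add_cancel, if_pos rfl]
      · intro p _ hp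
        rw [if_neg]
        intro h'
        exact hp (by rw [← h', add_sub_cancel_right])
      · intro h
        exact absurd (Finset.mem_univ _) h
    simp only [h2, Finset.sum_const, Finset.card_univ, Fintype.card_fin, smul_eq_mul, mul_one]
  -- patterns
  set x : ℝ := 1 - 1 / (2 * (Q : ℝ) ^ 2) with hx
  have hQ2 : 1 / (2 * (Q : ℝ) ^ 2) ≤ 1 := by
    rw [div_le_one (by positivity)]
    have : (1 : ℝ) ≤ (Q : ℝ) ^ 2 := one_le_pow₀ hQR
    linarith
  have hx0 : 0 ≤ x := by
    rw [hx]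
    linarith
  have hx1 : x ≤ 1 := by
    rw [hx]
    have : 0 ≤ 1 / (2 * (Q : ℝ) ^ 2) := by positivity
    linarith
  let T : Finset (ι × ((Fin a × Fin a) × (Fin Q × Fin Q))) :=
    (I ×ˢ univ).filter (fun p => p.2.1.1 ≠ p.2.1.2 ∧ g p.1 p.2.1.1 p.2.1.2)
  let f : ι × ((Fin a × Fin a) × (Fin Q × Fin Q)) → (Fin a → (Fin w → Fin Q)) → ℝ :=
    fun p ω => 2 ^ μ p.1 * hbad (φ p.2.1.1) (φ p.2.1.2) (C p.2.1.1 ∩ C p.2.1.2) p.2.2.1 p.2.2.2
      (ω p.2.1.1) (ω p.2.1.2)
  obtain ⟨ω, hω⟩ := union_var T f (fun p => 2 ^ μ p.1 * x ^ s p.1) (by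
      intro p _ ω
      apply mul_nonneg (by positivity)
      apply Finset.prod_nonneg
      intro t _
      split_ifs
      · norm_num
      · exact zero_le_one) (by
      intro p hp
      rw [Finset.mem_filter, Finset.mem_product] at hp
      obtain ⟨⟨hz, _⟩, hne, hg⟩ := hp
      have h1 := hbad_sum φ (C p.2.1.1 ∩ C p.2.1.2) hne ((hinj p.2.1.1).mono (by
        intro t ht
        exact (Finset.mem_inter.1 ht).1)) ((hinj p.2.1.2).mono (by
        intro t ht
        exact (Finset.mem_inter.1 ht).2)) p.2.2.1 p.2.2.2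
      have h2 : x ^ (C p.2.1.1 ∩ C p.2.1.2).card ≤ x ^ s p.1 :=
        pow_le_pow_of_le_one hx0 hx1 (hs _ hz _ _ hne hg)
      have h3 : (0 : ℝ) ≤ Fintype.card (Fin a → (Fin w → Fin Q)) := Nat.cast_nonneg _
      calc ∑ ω, f p ω = 2 ^ μ p.1 * ∑ ω : Fin a → (Fin w → Fin Q),
            hbad (φ p.2.1.1) (φ p.2.1.2) (C p.2.1.1 ∩ C p.2.1.2) p.2.2.1 p.2.2.2
              (ω p.2.1.1) (ω p.2.1.2) := by
            rw [Finset.mul_sum]
        _ ≤ 2 ^ μ p.1 * (Fintype.card (Fin a → (Fin w → Fin Q)) *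
            x ^ (C p.2.1.1 ∩ C p.2.1.2).card) := mul_le_mul_of_nonneg_left h1 (by positivity)
        _ ≤ 2 ^ μ p.1 * (Fintype.card (Fin a → (Fin w → Fin Q)) * x ^ s p.1) :=
            mul_le_mul_of_nonneg_left (mul_le_mul_of_nonneg_left h2 h3) (by positivity)
        _ = _ := by ring) (by
      refine lt_of_le_of_lt ?_ hb
      have h1 : ∑ p ∈ T, (2 ^ μ p.1 * x ^ s p.1) ≤
          ∑ p ∈ I ×ˢ (univ : Finset ((Fin a × Fin a) × (Fin Q × Fin Q))),
            (2 ^ μ p.1 * x ^ s p.1) := by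
        apply Finset.sum_le_sum_of_subset_of_nonneg (Finset.filter_subset _ _)
        intro p _ _
        positivity
      refine h1.trans (le_of_eq ?_)
      rw [Finset.sum_product]
      apply Finset.sum_congr rfl
      intro z _
      simp only
      rw [Finset.sum_const, nsmul_eq_mul, Finset.card_univ, Fintype.card_prod, Fintype.card_prod,
        Fintype.card_prod, Fintype.card_fin, Fintype.card_fin]
      push_cast
      ring)
  refine ⟨fun i t => lb (φ i) (ω i) t, fun i k => hsize (ω i) i k, ?_⟩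
  intro z hz i j hij hg k k'
  by_contra hno
  push Not at hno
  have h2 := hω (z, ((i, j), (k, k'))) (Finset.mem_filter.2
    ⟨Finset.mem_product.2 ⟨hz, Finset.mem_univ _⟩, hij, hg⟩)
  have h3 : (1 : ℝ) ≤ f (z, ((i, j), (k, k'))) ω := by
    simp only [f]
    rw [hbad_eq]
    have h5 : ((1 : ℝ) / 2) ^ μ z ≤ (1 / 2) ^ ((C i ∩ C j).filter (fun t =>
        lb (φ i) (ω i) t = k ∧ lb (φ j) (ω j) t = k')).card :=
      pow_le_pow_of_le_one (by norm_num) (by norm_num) hno
    have h6 : (2 : ℝ) ^ μ z * (1 / 2) ^ μ z = 1 := by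
      rw [← mul_pow]
      norm_num
    exact h6.symm.le.trans (mul_le_mul_of_nonneg_left h5 (by positivity))
  linarith

/-- Row B. -/
theorem kernel3 : Kernel3Stmt := by
  classical
  intro a N Q w θ Λ C hQ hC hb
  by_cases ha : a = 0
  · subst ha
    exact ⟨fun i => i.elim0, fun i => i.elim0, fun i => i.elim0, fun i => i.elim0⟩
  have hQR : (1 : ℝ) ≤ Q := by exact_mod_cast hQ
  have haR : (1 : ℝ) ≤ a := by exact_mod_cast Nat.one_le_iff_ne_zero.2 ha
  have hx0 : (0 : ℝ) ≤ 1 - 1 / (2 * (Q : ℝ) ^ 2) := by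
    rw [sub_nonneg, div_le_one (by positivity)]
    have : (1 : ℝ) ≤ (Q : ℝ) ^ 2 := one_le_pow₀ hQR
    linarith
  have haQ : (1 : ℝ) ≤ (a : ℝ) ^ 2 * (Q : ℝ) ^ 2 :=
    one_le_mul_of_one_le_of_one_le (one_le_pow₀ haR) (one_le_pow₀ hQR)
  have hnn1 : (0 : ℝ) ≤ (a : ℝ) ^ 2 * (Q : ℝ) ^ 2 *
      (2 * (1 - 1 / (2 * (Q : ℝ) ^ 2)) ^ θ) := by positivity
  have hnn2 : (0 : ℝ) ≤ (a : ℝ) ^ 2 * (Q : ℝ) ^ 2 *
      (2 ^ θ * (1 - 1 / (2 * (Q : ℝ) ^ 2)) ^ Λ) := by positivity
  -- `θ` and `Λ` are positive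
  have hθ0 : θ ≠ 0 := by
    rintro rfl
    rw [pow_zero] at hb
    linarith
  have hΛ0 : Λ ≠ 0 := by
    rintro rfl
    rw [pow_zero (1 - 1 / (2 * (Q : ℝ) ^ 2)), mul_one] at hb
    have h2 : (1 : ℝ) ≤ 2 ^ θ := one_le_pow₀ (by norm_num)
    have h3 := one_le_mul_of_one_le_of_one_le haQ h2
    linarith
  by_cases hw : w = 0
  · subst hw
    have hempty : ∀ i, C i = ∅ := fun i => Finset.card_eq_zero.1 (by rw [hC]; ring)
    refine ⟨fun _ _ => ⟨0, by omega⟩, ?_, ?_, ?_⟩
    · intro i k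
      rw [hempty]
      rfl
    · intro i j _ h1
      rw [hempty, Finset.empty_inter, Finset.card_empty] at h1
      omega
    · intro i j _ h1
      rw [hempty, Finset.empty_inter, Finset.card_empty] at h1
      omega
  obtain ⟨lab, h1, h2⟩ := kernel_pairs C hQ (Nat.one_le_iff_ne_zero.2 hw) hC
    (univ : Finset Bool) (fun z i j => (if z then Λ else θ) ≤ (C i ∩ C j).card)
    (fun z => if z then θ else 1) (fun z => if z then Λ else θ)
    (fun z _ i j _ h => h) (by
      rw [Fintype.sum_bool]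
      simp only [if_true, Bool.false_eq_true, if_false, pow_one]
      rw [add_comm]
      exact hb)
  refine ⟨lab, h1, ?_, ?_⟩
  · intro i j hij hc k k'
    have h3 := h2 false (Finset.mem_univ _) i j hij (by simpa using hc) k k'
    have h4 : 0 < ((C i ∩ C j).filter (fun t => lab i t = k ∧ lab j t = k')).card := by omega
    obtain ⟨t, ht⟩ := Finset.card_pos.1 h4
    rw [Finset.mem_filter] at ht
    exact ⟨t, ht.1, ht.2⟩
  · intro i j hij hc k k'
    have h3 := h2 true (Finset.mem_univ _) i j hij (by simpa using hc) k k'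
    simp only [if_true] at h3
    exact h3.le

end Vale.Agent.P181.T3
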