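import Vale.Agent.P181.T3.Fill

/-!
P181, three-row extension of the power map theorem: assembly.
-/

set_option autoImplicit false

open scoped TensorProduct

namespace Vale.Agent.P181.T3

open Vale.Agent.P181 Vale.Agent.P181.H280 Vale.Agent.P181.H179 Finset MvPolynomial

variable {n : ℕ}

section

variable {a q N h : ℕ} {l' : Fin N → ℕ}

/-- The power map relation in terms of the pieces. -/
lemma rel_pieces {F : MultilinearMap ℂ (fun _ : Fin a => MvPolynomial (Fin n) ℂ) ℂ}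
    (hd : ∀ G ∈ linS n ^ a, F (fun _ => G ^ q) = 0) (pc : Box l' → Fin a × Fin (2 * q))
    (hpcsize : ∀ i κ, (univ.filter (fun p => pc p = (i, κ))).card = h) (hah : a = 2 * h)
    (ρ : Fin a × Fin (2 * q) → Fin a × Fin q)
    (hρ : ∀ r, (univ.filter (fun p => ρ p = r)).card = 2) :
    ∑ σ : Equiv.Perm (Fin a × Fin q), VV F l' (fun p => (σ (ρ (pc p))).1) = 0 := by
  classical
  have hPM := PM F hd (fun p => (ρ (pc p)).1) (fun p => (ρ (pc p)).2) (by
      intro i k
      have h1 : (univ.filter (fun p : Box l' => (ρ (pc p)).1 = i ∧ (ρ (pc p)).2 = k)) =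
          univ.filter (fun p => ρ (pc p) = (i, k)) := by
        apply Finset.filter_congr
        intro p _
        exact ⟨fun h3 => Prod.ext h3.1 h3.2, fun h3 => by rw [h3]; exact ⟨rfl, rfl⟩⟩
      rw [h1]
      have h2 : (univ.filter (fun p => ρ (pc p) = (i, k))).card =
          ∑ P ∈ univ.filter (fun P => ρ P = (i, k)),
            (univ.filter (fun p => pc p = P)).card := by
        rw [Finset.card_eq_sum_card_fiberwise (f := pc)
          (t := univ.filter (fun P => ρ P = (i, k)))]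
        · apply Finset.sum_congr rfl
          intro P hP
          rw [Finset.mem_filter] at hP
          congr 1
          ext p
          rw [Finset.mem_filter, Finset.mem_filter, Finset.mem_filter]
          constructor
          · rintro ⟨_, h3⟩
            exact ⟨Finset.mem_univ _, h3⟩
          · rintro ⟨_, h3⟩
            exact ⟨⟨Finset.mem_univ _, by rw [h3]; exact hP.2⟩, h3⟩
        · intro p hp
          rw [Finset.mem_coe, Finset.mem_filter] at hp ⊢
          exact ⟨Finset.mem_univ _, hp.2⟩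
      rw [h2, Finset.sum_congr rfl (g := fun _ => h) (fun P _ => hpcsize P.1 P.2),
        Finset.sum_const, hρ, smul_eq_mul]
      exact hah.symm)
  rw [← hPM]
  apply Fintype.sum_equiv (Equiv.inv (Equiv.Perm (Fin a × Fin q)))
  intro σ
  rfl

/-- The partner structure of the regroupings which do not vanish. -/
lemma struct_pieces (hstruct : StructStmt) {θ Λ : ℕ} (hq : 1 ≤ q) (hθ : 1 ≤ θ)
    {F : MultilinearMap ℂ (fun _ : Fin a => MvPolynomial (Fin n) ℂ) ℂ} {e : Box l' → Fin a}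
    (hmin : ∀ e' : Box l' → Fin a, VV F l' e' ≠ 0 →
        low θ (fun p : Box l' => p.1) e ≤ low θ (fun p : Box l' => p.1) e')
    (hthree : ∀ i j k, i ≠ j → i ≠ k → j ≠ k → 2 * Λ + θ ≤
      (CC e i ∩ CC e j).card + (CC e i ∩ CC e k).card + (CC e j ∩ CC e k).card)
    (lab : Fin a → Fin N → Fin (2 * q))
    (hlab2 : ∀ i j, i ≠ j → θ ≤ (CC e i ∩ CC e j).card → ∀ k k', ∃ t ∈ CC e i ∩ CC e j,
        lab i t = k ∧ lab j t = k')
    (hlab3 : ∀ i j, i ≠ j → Λ ≤ (CC e i ∩ CC e j).card → ∀ k k',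
        θ ≤ ((CC e i ∩ CC e j).filter (fun t => lab i t = k ∧ lab j t = k')).card)
    (y : Fin a × Fin (2 * q) → Fin a)
    (hy : ∀ m, (univ.filter (fun p => y p = m)).card = 2 * q)
    (hVy : VV F l' (fun p => y (e p, lab (e p) p.1)) ≠ 0) :
    ∃ τ : Equiv.Perm (Fin a), ∀ p, τ (y p) = p.1 ∨
      τ (y p) = mate θ (fun p : Box l' => p.1) e p.1 := by
  classical
  have hcoly : ∀ x x' : Box l', x.1 = x'.1 → x ≠ x' →
      y (e x, lab (e x) x.1) ≠ y (e x', lab (e x') x'.1) := by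
    rintro ⟨t, u⟩ ⟨t', v⟩ h1 h2 h3
    simp only at h1
    subst h1
    exact hVy (VV_anti _ _ t (fun h4 => h2 (by rw [h4])) h3)
  obtain ⟨τ, hτ⟩ := hstruct a N (2 * q) θ Λ (Box l') (fun p => p.1)
    (fun p => (e p, lab (e p) p.1)) (by omega) hθ (by
      intro i j hij hc κ κ'
      have hc' : θ ≤ (CC e i ∩ CC e j).card := by
        rw [← cc_eq]
        exact hc
      obtain ⟨t, ht, h1, h2⟩ := hlab2 i j hij hc' κ κ'
      rw [Finset.mem_inter, mem_CC, mem_CC] at ht
      obtain ⟨⟨x, rfl, hx2⟩, x', hx1', hx2'⟩ := ht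
      refine ⟨x, x', hx1'.symm, ?_, ?_⟩
      · rw [hx2, h1]
      · rw [hx2', hx1', h2]) (by
      intro i j hij hc κ κ'
      have hc' : Λ ≤ (CC e i ∩ CC e j).card := by
        rw [← cc_eq]
        exact hc
      refine (hlab3 i j hij hc' κ κ').trans (Finset.card_le_card ?_)
      intro t ht
      rw [Finset.mem_filter, Finset.mem_inter, mem_CC, mem_CC] at ht
      obtain ⟨⟨⟨x, rfl, hx2⟩, x', hx1', hx2'⟩, h1, h2⟩ := ht
      rw [Finset.mem_filter]
      refine ⟨Finset.mem_univ _, ⟨x, rfl, ?_⟩, x', hx1', ?_⟩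
      · rw [hx2, h1]
      · rw [hx2', hx1', h2]) (by
      intro i j k hij hik hjk
      have h1 := hthree i j k hij hik hjk
      rw [← cc_eq, ← cc_eq, ← cc_eq] at h1
      exact h1) y hy hcoly (hmin _ hVy)
  refine ⟨τ, ?_⟩
  rintro ⟨i, κ⟩
  rcases hτ i κ with h1 | h1
  · exact Or.inl h1
  · right
    exact (mate_eq h1).symm

end

/-- The power map is injective on the highest weight vectors whose weight forces three rows to
share many columns. -/
theorem inj3 (hstruct : StructStmt) (hker : Kernel3Stmt) (halt : AltStmt) {a q h θ Λ : ℕ}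
    (ha : 3 ≤ a) (hq : 1 ≤ q) (hθ : 1 ≤ θ) (hah : a = 2 * h)
    (hnum : (a : ℝ) ^ 2 * ((2 * q : ℕ) : ℝ) ^ 2 *
        (2 * (1 - 1 / (2 * ((2 * q : ℕ) : ℝ) ^ 2)) ^ θ) +
      (a : ℝ) ^ 2 * ((2 * q : ℕ) : ℝ) ^ 2 *
        (2 ^ θ * (1 - 1 / (2 * ((2 * q : ℕ) : ℝ) ^ 2)) ^ Λ) < 1)
    (lam : Fin n → ℕ)
    (hlam : (∃ M, (∀ m, lam m ≤ M) ∧ M + (2 * Λ + θ) ≤ 3 * (q * a)) ∨
      (a ≤ n + 1 ∧ ∀ m : Fin n, (m : ℕ) + 1 < a → 2 * Λ + θ ≤ lam m))
    (x : Sym[ℂ]^a (Sym[ℂ]^(q * a) (Fin n → ℂ))) (hx : x ∈ hwSpace lam (plethAct a (q * a) n))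
    (h0 : powMap a q (Fin n → ℂ) x = 0) : x = 0 := by
  classical
  obtain ⟨l, rfl⟩ := exists_elOf x
  apply elOf_zero_of_fullForm
  by_contra hne
  obtain ⟨N, l', e, hV, hmin, hthree⟩ := exists_min (θ := θ) ha lam hlam l hx hne
  have hcol : ∀ t u v, u ≠ v → e ⟨t, u⟩ ≠ e ⟨t, v⟩ := fun t u v huv h =>
    hV (VV_anti _ e t huv h)
  have hrow := VV_card (fullForm_deg l) hV
  have hC : ∀ i, (CC e i).card = 2 * q * h := by
    intro i
    rw [CC_card hcol hrow i, hah]
    ring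
  obtain ⟨lab, hlab1, hlab2, hlab3⟩ := hker a N (2 * q) h θ Λ (CC e) (by omega) hC hnum
  have hpcsize : ∀ i κ, (univ.filter (fun p : Box l' => (e p, lab (e p) p.1) = (i, κ))).card =
      h := by
    intro i κ
    rw [← hlab1 i κ, ← CC_bij hcol i (fun t => lab i t = κ)]
    congr 1
    apply Finset.filter_congr
    intro p _
    rw [Prod.mk.injEq]
    constructor
    · rintro ⟨h1, h2⟩
      exact ⟨h1, by rw [← h1]; exact h2⟩
    · rintro ⟨h1, h2⟩
      exact ⟨h1, by rw [h1]; exact h2⟩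
  exact hV (halt a q (fun y => VV (fullForm l) l' (fun p => y (e p, lab (e p) p.1)))
    (mate θ (fun p : Box l' => p.1) e) (fun i => mate_mate i)
    (fun τ y => VV_symm (fullForm_symm l) τ (fun p => y (e p, lab (e p) p.1)))
    (fun ρ hρ => rel_pieces (fun G hG => fullForm_pow l h0 G hG)
      (fun p => (e p, lab (e p) p.1)) hpcsize hah ρ hρ)
    (fun y hy hVy => struct_pieces hstruct hq hθ hmin hthree lab hlab2 hlab3 y hy hVy))

end Vale.Agent.P181.T3
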